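import Mathlib

/-!
# The Snaky achievement game: the definitions used in the statements
-/

namespace Vale.Agent.P062

/-- A cell of the square grid, indexed by its lower-left corner. -/
abbrev Cell := ℤ × ℤ

/-- The hexomino Snaky. -/
def snaky : Finset Cell := {(0, 0), (1, 0), (2, 0), (3, 0), (3, 1), (4, 1)}

/-- The eight signed permutation matrices: `(x, y) ↦ (±x, ±y)` or `(x, y) ↦ (±y, ±x)`. -/
def signedPerm (swap neg₁ neg₂ : Bool) (c : Cell) : Cell :=
  let d : Cell := if swap then (c.2, c.1) else c
  (if neg₁ then -d.1 else d.1, if neg₂ then -d.2 else d.2)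

/-- An allowed copy of Snaky: a translate of the image of Snaky under a signed permutation
matrix. -/
def IsCopy (A : Finset Cell) : Prop :=
  ∃ (swap neg₁ neg₂ : Bool) (t : Cell), A = snaky.image fun c => t + signedPerm swap neg₁ neg₂ c

/-- The `i`-th claim of Maker (`i = 0, 1, …`), when Maker follows the strategy `σ` (a function of
the list of Breaker's earlier claims) and Breaker claims `b 0, b 1, …`; the order of play is
Maker's claim `0`, `b 0`, Maker's claim `1`, `b 1`, …. -/
def makerClaim (σ : List Cell → Cell) (b : ℕ → Cell) (i : ℕ) : Cell := σ ((List.range i).map b)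

/-- Breaker's play `b` is legal against `σ`: each claimed cell is so far unclaimed. -/
def BreakerLegal (σ : List Cell → Cell) (b : ℕ → Cell) : Prop :=
  ∀ i, (∀ j ≤ i, b i ≠ makerClaim σ b j) ∧ ∀ j < i, b i ≠ b j

/-- With its claims `0, …, n`, all of them legal, Maker owns an allowed copy of Snaky. -/
def MakerOwnsCopy (σ : List Cell → Cell) (b : ℕ → Cell) (n : ℕ) : Prop :=
  (∀ i ≤ n, ∀ j < i, makerClaim σ b i ≠ makerClaim σ b j ∧ makerClaim σ b i ≠ b j) ∧
    ∃ A, IsCopy A ∧ ∀ c ∈ A, ∃ i ≤ n, c = makerClaim σ b i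

end Vale.Agent.P062
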