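import Mathlib
import Vale.Agent.P062.Defs

/-!
# The Snaky achievement game: basic facts
-/

open Finset

namespace Vale.Agent.P062

/-- A set of cells contains an allowed copy. -/
def HasCopy (M : Finset Cell) : Prop := ∃ A, IsCopy A ∧ A ⊆ M

theorem HasCopy.mono {M M' : Finset Cell} (h : HasCopy M) (hM : M ⊆ M') : HasCopy M' := by
  obtain ⟨A, hA, hAM⟩ := h
  exact ⟨A, hA, hAM.trans hM⟩

/-- Maker, to move, can complete a copy with at most `k` further claims, when Maker owns `M` and
Breaker owns `B`. -/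
def WinsIn : ℕ → Finset Cell → Finset Cell → Prop
  | 0, _, _ => False
  | k + 1, M, B => ∃ m, m ∉ M ∧ m ∉ B ∧ (HasCopy (insert m M) ∨
      ∀ b, b ∉ insert m M → b ∉ B → WinsIn k (insert m M) (insert b B))

theorem exists_free (M B : Finset Cell) : ∃ c : Cell, c ∉ M ∧ c ∉ B := by
  obtain ⟨c, hc⟩ := Infinite.exists_notMem_finset (M ∪ B)
  rw [mem_union, not_or] at hc
  exact ⟨c, hc.1, hc.2⟩

theorem WinsIn.mono {k : ℕ} : ∀ {M B M' B' : Finset Cell}, WinsIn k M B → M ⊆ M' → B' ⊆ B →
    WinsIn k M' B' := by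
  induction k with
  | zero => intro M B M' B' h _ _; exact h.elim
  | succ k ih =>
    rintro M B M' B' ⟨m, hm, hmB, h⟩ hM hB
    -- choose the cell to claim
    obtain ⟨m', hm', hmB', hsub⟩ : ∃ m', m' ∉ M' ∧ m' ∉ B' ∧ insert m M ⊆ insert m' M' := by
      by_cases hmM : m ∈ M'
      · obtain ⟨c, hc, hcB⟩ := exists_free M' B'
        refine ⟨c, hc, hcB, ?_⟩
        intro x hx
        rcases mem_insert.1 hx with rfl | hx
        · exact mem_insert_of_mem hmM
        · exact mem_insert_of_mem (hM hx)
      · exact ⟨m, hmM, fun h => hmB (hB h), insert_subset_insert _ hM⟩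
    refine ⟨m', hm', hmB', ?_⟩
    rcases h with h | h
    · exact Or.inl (h.mono hsub)
    · right
      intro b hb hbB'
      have hb' : b ∉ insert m M := fun h => hb (hsub h)
      by_cases hbB : b ∈ B
      · obtain ⟨c, hc, hcB⟩ := exists_free (insert m M) B
        refine ih (h c hc hcB) hsub ?_
        intro x hx
        rcases mem_insert.1 hx with rfl | hx
        · exact mem_insert_of_mem hbB
        · exact mem_insert_of_mem (hB hx)
      · exact ih (h b hb' hbB) hsub (insert_subset_insert _ hB)

theorem WinsIn.succ {k : ℕ} : ∀ {M B : Finset Cell}, WinsIn k M B → WinsIn (k + 1) M B := by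
  induction k with
  | zero => intro M B h; exact h.elim
  | succ k ih =>
    rintro M B ⟨m, hm, hmB, h⟩
    refine ⟨m, hm, hmB, ?_⟩
    rcases h with h | h
    · exact Or.inl h
    · exact Or.inr fun b hb hbB => ih (h b hb hbB)

theorem WinsIn.le {k l : ℕ} (hkl : k ≤ l) {M B : Finset Cell} (h : WinsIn k M B) :
    WinsIn l M B := by
  induction hkl with
  | refl => exact h
  | step _ ih => exact ih.succ

/-! ### Symmetries -/

/-- A bijection of the plane that maps copies to copies. -/
structure IsSymm (T : Cell → Cell) : Prop where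
  inj : Function.Injective T
  surj : Function.Surjective T
  copy : ∀ A, IsCopy A → IsCopy (A.image T)

theorem HasCopy.image {T : Cell → Cell} (hT : IsSymm T) {M : Finset Cell} (h : HasCopy M) :
    HasCopy (M.image T) := by
  obtain ⟨A, hA, hAM⟩ := h
  exact ⟨A.image T, hT.copy A hA, image_subset_image hAM⟩

theorem mem_image_inj {T : Cell → Cell} (h : Function.Injective T) {S : Finset Cell}
    {c : Cell} : T c ∈ S.image T ↔ c ∈ S := by
  rw [mem_image]
  exact ⟨fun ⟨a, ha, hac⟩ => h hac ▸ ha, fun hc => ⟨c, hc, rfl⟩⟩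

theorem WinsIn.image {T : Cell → Cell} (hT : IsSymm T) {k : ℕ} : ∀ {M B : Finset Cell},
    WinsIn k M B → WinsIn k (M.image T) (B.image T) := by
  induction k with
  | zero => intro M B h; exact h.elim
  | succ k ih =>
    rintro M B ⟨m, hm, hmB, h⟩
    refine ⟨T m, ?_, ?_, ?_⟩
    · rwa [mem_image_inj hT.inj]
    · rwa [mem_image_inj hT.inj]
    · rcases h with h | h
      · left
        have := h.image hT
        rwa [image_insert] at this
      · right
        intro b hb hbB
        obtain ⟨b, rfl⟩ := hT.surj b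
        rw [← image_insert, mem_image_inj hT.inj] at hb
        rw [mem_image_inj hT.inj] at hbB
        have := ih (h b hb hbB)
        rwa [image_insert, image_insert] at this

/-! ### From `WinsIn` to strategies -/

open Classical in
/-- The cell Maker claims when Maker owns `M`, Breaker owns `B` and Maker can win in `k + 1`. -/
noncomputable def pick (k : ℕ) (M B : Finset Cell) : Cell :=
  if h : WinsIn (k + 1) M B then h.choose else (exists_free M B).choose

theorem pick_notMem (k : ℕ) (M B : Finset Cell) : pick k M B ∉ M ∧ pick k M B ∉ B := by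
  unfold pick
  split_ifs with h
  · exact ⟨h.choose_spec.1, h.choose_spec.2.1⟩
  · exact (exists_free M B).choose_spec

theorem pick_spec {k : ℕ} {M B : Finset Cell} (h : WinsIn (k + 1) M B) :
    HasCopy (insert (pick k M B) M) ∨ ∀ b, b ∉ insert (pick k M B) M → b ∉ B →
      WinsIn k (insert (pick k M B) M) (insert b B) := by
  unfold pick
  rw [dif_pos h]
  exact h.choose_spec.2.2

/-- The claim at time `i`: the cell `m₀` at time `0`, later a winning claim. -/
noncomputable def cl (m₀ : Cell) (N i : ℕ) (M B : Finset Cell) : Cell :=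
  if i = 0 then m₀ else pick (N - i) M B

/-- The position after the claims `l` of Breaker. The list is in reverse order (latest claim
first). -/
noncomputable def pos (m₀ : Cell) (N : ℕ) : List Cell → Finset Cell × Finset Cell
  | [] => (∅, ∅)
  | b :: l => (insert (cl m₀ N l.length (pos m₀ N l).1 (pos m₀ N l).2) (pos m₀ N l).1,
      insert b (pos m₀ N l).2)

/-- The strategy. -/
noncomputable def strat (m₀ : Cell) (N : ℕ) (l : List Cell) : Cell :=
  cl m₀ N l.length (pos m₀ N l.reverse).1 (pos m₀ N l.reverse).2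

/-- The position before Maker's claim `i`. -/
noncomputable def posAt (m₀ : Cell) (N : ℕ) (b : ℕ → Cell) (i : ℕ) : Finset Cell × Finset Cell :=
  pos m₀ N ((List.range i).map b).reverse

theorem strat_nil (m₀ : Cell) (N : ℕ) : strat m₀ N [] = m₀ := by
  simp [strat, cl]

theorem makerClaim_strat (m₀ : Cell) (N : ℕ) (b : ℕ → Cell) (i : ℕ) :
    makerClaim (strat m₀ N) b i = cl m₀ N i (posAt m₀ N b i).1 (posAt m₀ N b i).2 := by
  simp [makerClaim, strat, posAt]

theorem posAt_zero (m₀ : Cell) (N : ℕ) (b : ℕ → Cell) : posAt m₀ N b 0 = (∅, ∅) := by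
  simp [posAt, pos]

theorem posAt_succ (m₀ : Cell) (N : ℕ) (b : ℕ → Cell) (i : ℕ) :
    posAt m₀ N b (i + 1) = (insert (makerClaim (strat m₀ N) b i) (posAt m₀ N b i).1,
      insert (b i) (posAt m₀ N b i).2) := by
  rw [makerClaim_strat]
  have : ((List.range (i + 1)).map b).reverse = b i :: ((List.range i).map b).reverse := by
    rw [List.range_succ, List.map_append, List.reverse_append]
    simp
  unfold posAt
  rw [this, pos]
  simp

theorem mem_posAt_fst (m₀ : Cell) (N : ℕ) (b : ℕ → Cell) (i : ℕ) (c : Cell) :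
    c ∈ (posAt m₀ N b i).1 ↔ ∃ j < i, c = makerClaim (strat m₀ N) b j := by
  induction i with
  | zero => simp [posAt_zero]
  | succ i ih =>
    rw [posAt_succ, mem_insert, ih]
    constructor
    · rintro (h | ⟨j, hj, h⟩)
      · exact ⟨i, Nat.lt_succ_self i, h⟩
      · exact ⟨j, Nat.lt_succ_of_lt hj, h⟩
    · rintro ⟨j, hj, h⟩
      rcases Nat.lt_succ_iff_lt_or_eq.1 hj with hj | rfl
      · exact Or.inr ⟨j, hj, h⟩
      · exact Or.inl h

theorem mem_posAt_snd (m₀ : Cell) (N : ℕ) (b : ℕ → Cell) (i : ℕ) (c : Cell) :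
    c ∈ (posAt m₀ N b i).2 ↔ ∃ j < i, c = b j := by
  induction i with
  | zero => simp [posAt_zero]
  | succ i ih =>
    rw [posAt_succ, mem_insert, ih]
    constructor
    · rintro (h | ⟨j, hj, h⟩)
      · exact ⟨i, Nat.lt_succ_self i, h⟩
      · exact ⟨j, Nat.lt_succ_of_lt hj, h⟩
    · rintro ⟨j, hj, h⟩
      rcases Nat.lt_succ_iff_lt_or_eq.1 hj with hj | rfl
      · exact Or.inr ⟨j, hj, h⟩
      · exact Or.inl h

theorem legal_strat (m₀ : Cell) (N : ℕ) (b : ℕ → Cell) (i : ℕ) :
    ∀ j < i, makerClaim (strat m₀ N) b i ≠ makerClaim (strat m₀ N) b j ∧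
      makerClaim (strat m₀ N) b i ≠ b j := by
  intro j hj
  have hi : i ≠ 0 := by omega
  have h := pick_notMem (N - i) (posAt m₀ N b i).1 (posAt m₀ N b i).2
  have e : makerClaim (strat m₀ N) b i = pick (N - i) (posAt m₀ N b i).1 (posAt m₀ N b i).2 := by
    rw [makerClaim_strat, cl, if_neg hi]
  rw [← e, mem_posAt_fst, mem_posAt_snd] at h
  push Not at h
  exact ⟨h.1 j hj, h.2 j hj⟩

/-- If Maker can win in `N` claims after claiming `m₀` and each answer `b` of Breaker that
satisfies `R`, then Maker has a strategy that wins each play whose first claim by Breaker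
satisfies `R`. -/
theorem strategy_of_winsIn {m₀ : Cell} {R : Cell → Prop} {N : ℕ}
    (h : ∀ b, b ≠ m₀ → R b → WinsIn N {m₀} {b}) (b : ℕ → Cell)
    (hb : BreakerLegal (strat m₀ N) b) (hR : R (b 0)) :
    ∃ n ≤ N, MakerOwnsCopy (strat m₀ N) b n := by
  by_contra hcon
  push Not at hcon
  have h0 : makerClaim (strat m₀ N) b 0 = m₀ := by
    rw [makerClaim_strat, cl, if_pos rfl]
  have hb0 : b 0 ≠ m₀ := by
    rw [← h0]
    exact (hb 0).1 0 le_rfl
  -- a copy is owned after a winning claim
  have own : ∀ i ≤ N, HasCopy (insert (makerClaim (strat m₀ N) b i) (posAt m₀ N b i).1) →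
      False := by
    intro i hi hc
    refine hcon i hi ⟨fun a _ c hca => legal_strat m₀ N b a c hca, ?_⟩
    obtain ⟨A, hA, hAM⟩ := hc
    refine ⟨A, hA, fun c hc => ?_⟩
    rcases mem_insert.1 (hAM hc) with h | h
    · exact ⟨i, le_rfl, h⟩
    · obtain ⟨j, hj, h⟩ := (mem_posAt_fst m₀ N b i c).1 h
      exact ⟨j, hj.le, h⟩
  have key : ∀ i, i ≤ N → WinsIn (N - i) (posAt m₀ N b (i + 1)).1 (posAt m₀ N b (i + 1)).2 := by
    intro i hi
    induction i with
    | zero =>
      rw [posAt_succ, posAt_zero, h0]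
      exact h (b 0) hb0 hR
    | succ i ih =>
      have h1 := ih (by omega)
      have e1 : N - i = (N - (i + 1)) + 1 := by omega
      rw [e1] at h1
      have e2 : makerClaim (strat m₀ N) b (i + 1) =
          pick (N - (i + 1)) (posAt m₀ N b (i + 1)).1 (posAt m₀ N b (i + 1)).2 := by
        rw [makerClaim_strat, cl, if_neg (Nat.succ_ne_zero i)]
      have h2 := pick_spec h1
      rw [← e2] at h2
      rcases h2 with h2 | h2
      · exact (own (i + 1) hi h2).elim
      · rw [posAt_succ m₀ N b (i + 1)]
        refine h2 (b (i + 1)) ?_ ?_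
        · rw [mem_insert, mem_posAt_fst]
          push Not
          exact ⟨(hb (i + 1)).1 (i + 1) le_rfl, fun j hj => (hb (i + 1)).1 j hj.le⟩
        · rw [mem_posAt_snd]
          push Not
          exact (hb (i + 1)).2
  have := key N le_rfl
  rw [Nat.sub_self] at this
  exact this

end Vale.Agent.P062
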