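import Mathlib
import Vale.Agent.P062.Game

/-!
# Good patterns
-/

open Finset

namespace Vale.Agent.P062

/-- Maker to move wins with at most `K` claims from each position in which Maker owns `M` and
Breaker owns at most one cell of `C` (and none of `M`). -/
def Good (K : ℕ) (M C : Finset Cell) : Prop :=
  ∀ (B : Finset Cell) (b : Cell), Disjoint M B → (∀ c ∈ C, c ∈ B → c = b) → WinsIn K M B

/-- `Good` for some number of claims. -/
def GoodE (M C : Finset Cell) : Prop := ∃ K, Good K M C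

theorem Good.le {K L : ℕ} (hKL : K ≤ L) {M C : Finset Cell} (h : Good K M C) : Good L M C :=
  fun B b h1 h2 => (h B b h1 h2).le hKL

theorem GoodE.image {T : Cell → Cell} (hT : IsSymm T) {M C : Finset Cell} (h : GoodE M C) :
    GoodE (M.image T) (C.image T) := by
  obtain ⟨K, h⟩ := h
  refine ⟨K, fun B b h1 h2 => ?_⟩
  obtain ⟨b0, rfl⟩ := hT.surj b
  have hB : (B.preimage T hT.inj.injOn).image T = B := by
    ext c
    rw [mem_image]
    constructor
    · rintro ⟨a, ha, rfl⟩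
      exact mem_preimage.1 ha
    · intro hc
      obtain ⟨a, rfl⟩ := hT.surj c
      exact ⟨a, mem_preimage.2 hc, rfl⟩
  have := (h (B.preimage T hT.inj.injOn) b0 ?_ ?_).image hT
  · rwa [hB] at this
  · rw [disjoint_left] at h1 ⊢
    intro c hc hcB
    exact h1 (mem_image_of_mem T hc) (mem_preimage.1 hcB)
  · intro c hc hcB
    exact hT.inj (h2 (T c) (mem_image_of_mem T hc) (mem_preimage.1 hcB))

/-- A record `(m, Mq, D)`: claiming `m` creates the pattern `Mq` whose carrier is inside `D`. -/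
def RecOK (r : Cell × Finset Cell × Finset Cell) : Prop :=
  r.1 ∈ r.2.2 ∧ (HasCopy r.2.1 ∨ ∃ Cq, Cq ⊆ r.2.2 ∧ GoodE r.2.1 Cq)

theorem uniform (L : List (Cell × Finset Cell × Finset Cell)) (h : ∀ r ∈ L, RecOK r) :
    ∃ K, ∀ r ∈ L, r.1 ∈ r.2.2 ∧ (HasCopy r.2.1 ∨ ∃ Cq, Cq ⊆ r.2.2 ∧ Good K r.2.1 Cq) := by
  induction L with
  | nil => exact ⟨0, fun r hr => absurd hr List.not_mem_nil⟩
  | cons a L ih =>
    obtain ⟨K, hK⟩ := ih fun r hr => h r (List.mem_cons_of_mem a hr)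
    obtain ⟨h1, h2⟩ := h a List.mem_cons_self
    rcases h2 with h2 | ⟨Cq, hCq, K', h2⟩
    · refine ⟨K, fun r hr => ?_⟩
      rcases List.mem_cons.1 hr with rfl | hr
      · exact ⟨h1, Or.inl h2⟩
      · exact hK r hr
    · refine ⟨max K K', fun r hr => ?_⟩
      rcases List.mem_cons.1 hr with rfl | hr
      · exact ⟨h1, Or.inr ⟨Cq, hCq, h2.le (le_max_right _ _)⟩⟩
      · obtain ⟨h3, h4⟩ := hK r hr
        refine ⟨h3, ?_⟩
        rcases h4 with h4 | ⟨C', hC', h4⟩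
        · exact Or.inl h4
        · exact Or.inr ⟨C', hC', h4.le (le_max_left _ _)⟩

theorem play {K : ℕ} {M B : Finset Cell} {r : Cell × Finset Cell × Finset Cell}
    (h1 : r.1 ∈ r.2.2) (h2 : HasCopy r.2.1 ∨ ∃ Cq, Cq ⊆ r.2.2 ∧ Good K r.2.1 Cq)
    (hM : r.2.1 ⊆ insert r.1 M) (hm : r.1 ∉ M) (hB : Disjoint M B) (hD : Disjoint r.2.2 B) :
    WinsIn (K + 1) M B := by
  have hmB : r.1 ∉ B := disjoint_left.1 hD h1
  refine ⟨r.1, hm, hmB, ?_⟩
  rcases h2 with h2 | ⟨Cq, hCq, h2⟩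
  · exact Or.inl (h2.mono hM)
  · right
    intro b hb hbB
    refine (h2 (insert b B) b ?_ ?_).mono hM (Subset.refl _)
    · rw [disjoint_left]
      intro c hc hcB
      have hc' := hM hc
      rcases mem_insert.1 hcB with rfl | hcB
      · exact hb hc'
      · rcases mem_insert.1 hc' with rfl | hc'
        · exact hmB hcB
        · exact disjoint_left.1 hB hc' hcB
    · intro c hc hcB
      rcases mem_insert.1 hcB with rfl | hcB
      · rfl
      · exact absurd hcB (disjoint_left.1 hD (hCq hc))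

theorem finish {L : List (Cell × Finset Cell × Finset Cell)} {M C : Finset Cell} (hne : L ≠ [])
    (h : ∀ r ∈ L, RecOK r) (hM : ∀ r ∈ L, r.2.1 ⊆ insert r.1 M) (hm : ∀ r ∈ L, r.1 ∉ M)
    (hD : ∀ r ∈ L, ∀ c ∈ r.2.2, c ∉ M → c ∈ C) (hI : ∀ b, b ∉ M → ∃ r ∈ L, b ∉ r.2.2) :
    GoodE M C := by
  obtain ⟨K, hK⟩ := uniform L h
  refine ⟨K + 1, fun B b hB hC => ?_⟩
  have key : ∀ r ∈ L, (b ∈ M ∨ b ∉ r.2.2) → WinsIn (K + 1) M B := by
    intro r hr hb
    obtain ⟨h1, h2⟩ := hK r hr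
    refine play h1 h2 (hM r hr) (hm r hr) hB ?_
    rw [disjoint_left]
    intro c hc hcB
    have hcM : c ∉ M := fun hcM => disjoint_left.1 hB hcM hcB
    have := hC c (hD r hr c hc hcM) hcB
    subst this
    rcases hb with hb | hb
    · exact hcM hb
    · exact hb hc
  by_cases hbM : b ∈ M
  · obtain ⟨r, hr⟩ := List.exists_mem_of_ne_nil L hne
    exact key r hr (Or.inl hbM)
  · obtain ⟨r, hr, hb⟩ := hI b hbM
    exact key r hr (Or.inr hb)

theorem finishRoot {L : List (Cell × Finset Cell × Finset Cell)} {M I : Finset Cell}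
    (h : ∀ r ∈ L, RecOK r) (hM : ∀ r ∈ L, r.2.1 ⊆ insert r.1 M) (hm : ∀ r ∈ L, r.1 ∉ M)
    (hI : ∀ b, b ∉ M → b ∉ I → ∃ r ∈ L, b ∉ r.2.2) :
    ∃ K, ∀ b, b ∉ M → b ∉ I → WinsIn K M {b} := by
  obtain ⟨K, hK⟩ := uniform L h
  refine ⟨K + 1, fun b hb hbI => ?_⟩
  obtain ⟨r, hr, hbD⟩ := hI b hb hbI
  obtain ⟨h1, h2⟩ := hK r hr
  refine play h1 h2 (hM r hr) (hm r hr) ?_ ?_
  · exact disjoint_singleton_right.2 hb
  · exact disjoint_singleton_right.2 hbD

/-! ### The symmetries of the square lattice -/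

theorem IsSymm.comp {S T : Cell → Cell} (hS : IsSymm S) (hT : IsSymm T) : IsSymm (S ∘ T) where
  inj := hS.inj.comp hT.inj
  surj := hS.surj.comp hT.surj
  copy A hA := by
    rw [← image_image]
    exact hS.copy _ (hT.copy A hA)

theorem isSymm_of {T : Cell → Cell} (hinj : Function.Injective T) (hsurj : Function.Surjective T)
    (h : ∀ (s n1 n2 : Bool) (t : Cell), ∃ (s' n1' n2' : Bool) (t' : Cell),
      ∀ c, T (t + signedPerm s n1 n2 c) = t' + signedPerm s' n1' n2' c) : IsSymm T where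
  inj := hinj
  surj := hsurj
  copy A hA := by
    obtain ⟨s, n1, n2, t, rfl⟩ := hA
    obtain ⟨s', n1', n2', t', h'⟩ := h s n1 n2 t
    refine ⟨s', n1', n2', t', ?_⟩
    rw [image_image]
    exact image_congr fun c _ => h' c

theorem isSymm_id : IsSymm (id : Cell → Cell) :=
  isSymm_of Function.injective_id Function.surjective_id fun s n1 n2 t => ⟨s, n1, n2, t, fun _ => rfl⟩

theorem isSymm_translate (a b : ℤ) : IsSymm (fun c : Cell => (c.1 + a, c.2 + b)) := by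
  refine isSymm_of ?_ ?_ ?_
  · rintro ⟨x, y⟩ ⟨z, w⟩ h
    simp only [Prod.mk.injEq, add_left_inj] at h
    exact Prod.ext h.1 h.2
  · rintro ⟨x, y⟩
    exact ⟨(x - a, y - b), by simp⟩
  · intro s n1 n2 t
    refine ⟨s, n1, n2, (t.1 + a, t.2 + b), fun c => ?_⟩
    ext
    · simp only [Prod.fst_add]; ring
    · simp only [Prod.snd_add]; ring

theorem isSymm_swap : IsSymm (fun c : Cell => (c.2, c.1)) := by
  refine isSymm_of ?_ ?_ ?_
  · rintro ⟨x, y⟩ ⟨z, w⟩ h
    simp only [Prod.mk.injEq] at h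
    exact Prod.ext h.2 h.1
  · rintro ⟨x, y⟩
    exact ⟨(y, x), rfl⟩
  · intro s n1 n2 t
    refine ⟨!s, n2, n1, (t.2, t.1), fun c => ?_⟩
    cases s <;> cases n1 <;> cases n2 <;> ext <;> simp [signedPerm]

theorem isSymm_neg_fst : IsSymm (fun c : Cell => (-c.1, c.2)) := by
  refine isSymm_of ?_ ?_ ?_
  · rintro ⟨x, y⟩ ⟨z, w⟩ h
    simp only [Prod.mk.injEq, neg_inj] at h
    exact Prod.ext h.1 h.2
  · rintro ⟨x, y⟩
    exact ⟨(-x, y), by simp⟩
  · intro s n1 n2 t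
    refine ⟨s, !n1, n2, (-t.1, t.2), fun c => ?_⟩
    cases s <;> cases n1 <;> cases n2 <;> ext <;> simp [signedPerm] <;> ring

theorem isSymm_neg_snd : IsSymm (fun c : Cell => (c.1, -c.2)) := by
  refine isSymm_of ?_ ?_ ?_
  · rintro ⟨x, y⟩ ⟨z, w⟩ h
    simp only [Prod.mk.injEq, neg_inj] at h
    exact Prod.ext h.1 h.2
  · rintro ⟨x, y⟩
    exact ⟨(x, -y), by simp⟩
  · intro s n1 n2 t
    refine ⟨s, n1, !n2, (t.1, -t.2), fun c => ?_⟩
    cases s <;> cases n1 <;> cases n2 <;> ext <;> simp [signedPerm] <;> ring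

end Vale.Agent.P062
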