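import Vale.Agent.P062.Data
import Vale.Agent.P062.Sound

/-!
# Evaluation of the checker
-/

namespace Vale.Agent.P062

/-- The whole check. -/
noncomputable def runAll (t : Tr) (i : ℕ) : Bool :=
  go 1405 dat0 t i 0 0 FULL 0 fun t i =>
  go 1405 dat1 t i 0 0 FULL 0 fun t i =>
  go 1405 dat2 t i 0 0 FULL 0 fun t i =>
  go 1402 dat3 t i 0 0 FULL 0 fun t i =>
  go 1405 dat4 t i 0 0 FULL 0 fun t i =>
  go 1403 dat5 t i 0 0 FULL 0 fun t i =>
  go 1401 dat6 t i 0 0 FULL 0 fun t i =>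
  go 1403 dat7 t i 0 0 FULL 0 fun t i =>
  go 150 dat8 t i 0 0 FULL 0 fun t i =>
  goR 46 datR t 0 0 FULL 0 (last maskA)

theorem run_eq : runAll (.node startPat .leaf .leaf) 1 = true := by
  decide +kernel

theorem start_ok : PatOK startPat := by
  refine Or.inl ⟨snaky, ⟨false, false, false, 0, ?_⟩, ?_⟩
  · decide
  · have h : ∀ c ∈ snaky, c ∈ cs 0 startPat := by
      intro c hc
      simp only [snaky, Finset.mem_insert, Finset.mem_singleton] at hc
      rcases hc with rfl | rfl | rfl | rfl | rfl | rfl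
      · exact cel_mem_cs (p := (0, 0)).2 ⟨by decide +kernel, by norm_num, by norm_num⟩
      · exact cel_mem_cs (p := (1, 0)).2 ⟨by decide +kernel, by norm_num, by norm_num⟩
      · exact cel_mem_cs (p := (2, 0)).2 ⟨by decide +kernel, by norm_num, by norm_num⟩
      · exact cel_mem_cs (p := (3, 0)).2 ⟨by decide +kernel, by norm_num, by norm_num⟩
      · exact cel_mem_cs (p := (3, 1)).2 ⟨by decide +kernel, by norm_num, by norm_num⟩
      · exact cel_mem_cs (p := (4, 1)).2 ⟨by decide +kernel, by norm_num, by norm_num⟩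
    exact h

theorem maskA_zero : ((0 : ℤ), (0 : ℤ)) ∉ cs 0 maskA := by
  have e : cel (0, 0) = ((0 : ℤ), (0 : ℤ)) := by simp [cel]
  rw [← e, cel_mem_cs]
  intro h
  exact absurd h.1 (by decide +kernel)

theorem exists_wins : ∃ K, ∀ b : Cell, b ≠ (8, 8) → b ∉ cs 0 maskA → WinsIn K {(8, 8)} {b} := by
  have h := run_eq
  unfold runAll at h
  have t0 : (Tr.node startPat .leaf .leaf).All PatOK := ⟨start_ok, trivial, trivial⟩
  obtain ⟨_, _, t1, h⟩ := go_sound _ t0 Inv.nil h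
  obtain ⟨_, _, t2, h⟩ := go_sound _ t1 Inv.nil h
  obtain ⟨_, _, t3, h⟩ := go_sound _ t2 Inv.nil h
  obtain ⟨_, _, t4, h⟩ := go_sound _ t3 Inv.nil h
  obtain ⟨_, _, t5, h⟩ := go_sound _ t4 Inv.nil h
  obtain ⟨_, _, t6, h⟩ := go_sound _ t5 Inv.nil h
  obtain ⟨_, _, t7, h⟩ := go_sound _ t6 Inv.nil h
  obtain ⟨_, _, t8, h⟩ := go_sound _ t7 Inv.nil h
  obtain ⟨_, _, t9, h⟩ := go_sound _ t8 Inv.nil h
  obtain ⟨L, M, C, I, Z, hL, h⟩ := goR_sound _ t9 Inv.nil h
  exact last_sound hL h maskA_zero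

end Vale.Agent.P062
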